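import Mathlib
import Vale.Agent.P153.Defs
import Vale.Agent.P153.Refl
import Vale.Agent.P153.Side

open Finset

namespace Vale.Agent.Results.P153.MeanSide

open Vale.Agent.P153

open Classical in
/-- Exact identity for the uniform odd-integer Lipschitz height model with `+1 / -1` boundary
values on a finite, connected, simply connected triangulated graph: the sum of `h x` over all
admissible `h` equals the number of `h` for which `x` is on the plus side of the interface minus
the number of `h` for which it is not. -/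
theorem result {V : Type} [Fintype V] (G : SimpleGraph V) (Ap Am : Set V)
    (hconn : G.Connected) (hsc : SimplyConnectedModTwo G)
    (hAp : ConnectedIn G Ap) (hAm : ConnectedIn G Am)
    (hedge : ∃ a ∈ Ap, ∃ b ∈ Am, G.Adj a b) :
    ∃ H : Finset (V → ℤ), (∀ h, h ∈ H ↔ Admissible G Ap Am h) ∧
      ∀ x : V, ∑ h ∈ H, h x
        = ((H.filter (fun h => PlusSide G Ap Am h x)).card : ℤ)
          - ((H.filter (fun h => ¬ PlusSide G Ap Am h x)).card : ℤ) := by
  obtain ⟨a0, ha0, b0, hb0, hab⟩ := hedge
  obtain ⟨H, hH⟩ := exists_finset (G := G) (Ap := Ap) (Am := Am) hconn ha0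
  refine ⟨H, hH, ?_⟩
  intro x
  have hchar : ∀ h ∈ H, (PlusSide G Ap Am h x ↔ Lset G Ap Am h x) ∧
      (¬ PlusSide G Ap Am h x ↔ Rset G Ap Am h x) :=
    fun h hh => side_char hconn hsc hAp hAm ha0 hb0 hab ((hH h).mp hh) x
  have e1 : H.filter (fun h => PlusSide G Ap Am h x)
      = H.filter (fun h => (fun C : V → Prop => Clus G Ap (fun v => ¬ C v) x) (Cl G Am (-1) h)) := by
    apply filter_congr
    intro h hh
    rw [(hchar h hh).1, cl_minus]
    rfl
  have e2 : H.filter (fun h => ¬ PlusSide G Ap Am h x)
      = H.filter (fun h => (fun C : V → Prop => Clus G Am (fun v => ¬ C v) x) (Cl G Ap 1 h)) := by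
    apply filter_congr
    intro h hh
    rw [(hchar h hh).2, cl_plus]
    rfl
  have s1 := sum_refl (G := G) (S := Am) (T := Ap) (σ := -1) (Or.inr rfl) H
    (fun h => (hH h).trans adm_iff_minus)
    (fun C : V → Prop => Clus G Ap (fun v => ¬ C v) x) x
    (fun h hc => Clus.prop (P := fun v => ¬ Cl G Am (-1) h v) hc)
  have s2 := sum_refl (G := G) (S := Ap) (T := Am) (σ := 1) (Or.inl rfl) H
    (fun h => (hH h).trans adm_iff_plus)
    (fun C : V → Prop => Clus G Am (fun v => ¬ C v) x) x
    (fun h hc => Clus.prop (P := fun v => ¬ Cl G Ap 1 h v) hc)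
  rw [← sum_filter_add_sum_filter_not H (fun h => PlusSide G Ap Am h x), e1, e2, s1, s2]
  ring

end Vale.Agent.Results.P153.MeanSide
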